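import Vale.Agent.P097.Reg.STab

/-! # P097 / ALG-GEO: a table bounded by an algebraic curve has an algebraic radius of curvature.
Owner: helper937. -/

set_option linter.all false

open Polynomial Set
open scoped ContDiff

namespace Vale.Agent.P097.H937

/-! ## 1. The domain of real analytic functions with complex values -/

/-- the algebra of real analytic functions with complex values -/
def An : Subalgebra ℂ (ℝ → ℂ) where
  carrier := {f | AnalyticOnNhd ℝ f univ}
  mul_mem' := fun {f g} (hf : AnalyticOnNhd ℝ f univ) (hg : AnalyticOnNhd ℝ g univ) => hf.mul hg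
  add_mem' := fun {f g} (hf : AnalyticOnNhd ℝ f univ) (hg : AnalyticOnNhd ℝ g univ) => hf.add hg
  algebraMap_mem' := fun c => (analyticOnNhd_const : AnalyticOnNhd ℝ (fun _ : ℝ => c) univ)

theorem An.an (f : An) : AnalyticOnNhd ℝ f.1 univ := f.2

instance : NoZeroDivisors An := ⟨fun {f g} h => by
  have h' : ∀ z ∈ univ, f.1 z * g.1 z = 0 := fun z _ => congrFun (congrArg Subtype.val h) z
  rcases AnalyticOnNhd.eq_zero_or_eq_zero_of_mul_eq_zero (An.an f) (An.an g) h' isPreconnected_univ with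
    h1 | h1
  · left
    exact Subtype.ext (funext fun z => h1 z trivial)
  · right
    exact Subtype.ext (funext fun z => h1 z trivial)⟩

theorem An.ne_zero {f : An} {x : ℝ} (h : f.1 x ≠ 0) : f ≠ 0 := fun h0 => h (by rw [h0]; rfl)

/-- a real analytic function -/
def ofR (f : ℝ → ℝ) (hf : AnalyticOnNhd ℝ f univ) : An :=
  ⟨fun x => ((f x : ℝ) : ℂ), fun x hx =>
    (Complex.ofRealCLM.analyticAt (f x)).comp (hf x hx)⟩

/-- algebraic dependence of the second function on the first one -/
def Dep (t a : ℝ → ℂ) : Prop := ∃ P : ℂ[X][X], P ≠ 0 ∧ ∀ x, P.evalEval (t x) (a x) = 0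

/-- value of a polynomial -/
noncomputable def ev (t a : An) (P : ℂ[X][X]) : An :=
  P.eval₂ (aeval t : ℂ[X] →ₐ[ℂ] An).toRingHom a

theorem ev_apply (t a : An) (P : ℂ[X][X]) (x : ℝ) :
    (ev t a P).1 x = P.evalEval (t.1 x) (a.1 x) := by
  have h1 : (ev t a P).1 x = ((Pi.evalRingHom (fun _ : ℝ => ℂ) x).comp An.val.toRingHom)
      (P.eval₂ (aeval t : ℂ[X] →ₐ[ℂ] An).toRingHom a) := rfl
  rw [h1, hom_eval₂, ← eval₂_evalRingHom]
  have h2 : ((Pi.evalRingHom (fun _ : ℝ => ℂ) x).comp An.val.toRingHom).comp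
      (aeval t : ℂ[X] →ₐ[ℂ] An).toRingHom = evalRingHom (t.1 x) := by
    apply Polynomial.ringHom_ext
    · intro c
      simp
    · simp
  rw [h2]
  rfl

theorem dep_iff (t a : An) : Dep t.1 a.1 ↔
    @IsAlgebraic ℂ[X] An _ _ (aeval t : ℂ[X] →ₐ[ℂ] An).toRingHom.toAlgebra a := by
  letI := (aeval t : ℂ[X] →ₐ[ℂ] An).toRingHom.toAlgebra
  constructor
  · rintro ⟨P, hP, h⟩
    refine ⟨P, hP, ?_⟩
    have : aeval a P = ev t a P := rfl
    rw [this]
    exact Subtype.ext (funext fun x => by rw [ev_apply]; exact h x)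
  · rintro ⟨P, hP, h⟩
    refine ⟨P, hP, fun x => ?_⟩
    rw [← ev_apply]
    have : aeval a P = ev t a P := rfl
    rw [← this, h]
    rfl

theorem dep_mul {t a b : An} (ha : Dep t.1 a.1) (hb : Dep t.1 b.1) : Dep t.1 (a * b).1 := by
  letI := (aeval t : ℂ[X] →ₐ[ℂ] An).toRingHom.toAlgebra
  rw [dep_iff] at *
  exact IsAlgebraic.mul ha hb

theorem dep_add {t a b : An} (ha : Dep t.1 a.1) (hb : Dep t.1 b.1) : Dep t.1 (a + b).1 := by
  letI := (aeval t : ℂ[X] →ₐ[ℂ] An).toRingHom.toAlgebra
  rw [dep_iff] at *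
  exact IsAlgebraic.add ha hb

theorem dep_self (t : An) : Dep t.1 t.1 :=
  ⟨X - C X, by
    intro h
    have := congrArg (fun P => P.coeff 1) h
    simp at this, fun x => by simp [evalEval_C]⟩

theorem dep_const (t : An) (c : ℂ) : Dep t.1 (algebraMap ℂ An c).1 :=
  ⟨X - C (C c), by
    intro h
    have := congrArg (fun P => P.coeff 1) h
    simp at this, fun x => by
    simp [evalEval_C]⟩

theorem dep_ev {t a : An} (ha : Dep t.1 a.1) (P : ℂ[X][X]) : Dep t.1 (ev t a P).1 := by
  induction P using Polynomial.induction_on' with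
  | add p q hp hq =>
    have : ev t a (p + q) = ev t a p + ev t a q := eval₂_add _ _
    rw [this]
    exact dep_add hp hq
  | monomial n c =>
    have h1 : ev t a (monomial n c) = aeval t c * a ^ n := by
      simp [ev, eval₂_monomial]
    rw [h1]
    apply dep_mul
    · induction c using Polynomial.induction_on' with
      | add p q hp hq =>
        rw [map_add]
        apply dep_add
        · apply hp
          simp [ev, eval₂_monomial]
        · apply hq
          simp [ev, eval₂_monomial]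
      | monomial m c =>
        rw [aeval_monomial]
        apply dep_mul (dep_const t c)
        clear h1
        induction m with
        | zero => rw [pow_zero]; exact (map_one (algebraMap ℂ An)) ▸ dep_const t 1
        | succ m ih => rw [pow_succ]; exact dep_mul ih (dep_self t)
    · clear h1
      induction n with
      | zero => rw [pow_zero]; exact (map_one (algebraMap ℂ An)) ▸ dep_const t 1
      | succ m ih => rw [pow_succ]; exact dep_mul ih ha

theorem dep_of_mul {t a b : An} (h0 : a ≠ 0) (ha : Dep t.1 a.1) (hb : Dep t.1 (a * b).1) :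
    Dep t.1 b.1 := by
  letI := (aeval t : ℂ[X] →ₐ[ℂ] An).toRingHom.toAlgebra
  rw [dep_iff] at *
  exact IsAlgebraic.of_mul (mem_nonZeroDivisors_of_ne_zero h0) ha hb

theorem dep_of_sq {t a : An} (ha : Dep t.1 (a ^ 2).1) : Dep t.1 a.1 := by
  letI := (aeval t : ℂ[X] →ₐ[ℂ] An).toRingHom.toAlgebra
  rw [dep_iff] at *
  exact IsAlgebraic.of_pow (by norm_num) ha

theorem dep_swap {t a : ℝ → ℂ} (h : Dep t a) : Dep a t := by
  obtain ⟨P, hP, h⟩ := h
  refine ⟨Bivariate.swap P, by simpa using hP, fun x => ?_⟩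
  rw [← coe_aevalAeval_eq_evalEval, Bivariate.aevalAeval_swap, coe_aevalAeval_eq_evalEval]
  exact h x

/-! ## 2. Derivatives -/

theorem hasDeriv_ev (P : ℂ[X][X]) : ∃ PX : ℂ[X][X], ∀ (t a : ℝ → ℂ) (t' a' : ℂ) (x : ℝ),
    HasDerivAt t t' x → HasDerivAt a a' x →
    HasDerivAt (fun s => P.evalEval (t s) (a s))
      (PX.evalEval (t x) (a x) * t' + (derivative P).evalEval (t x) (a x) * a') x := by
  induction P using Polynomial.induction_on' with
  | add p q hp hq =>
    obtain ⟨p1, hp⟩ := hp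
    obtain ⟨q1, hq⟩ := hq
    refine ⟨p1 + q1, fun t a t' a' x ht ha => ?_⟩
    have := (hp t a t' a' x ht ha).add (hq t a t' a' x ht ha)
    refine HasDerivAt.congr_deriv (this.congr_of_eventuallyEq (Filter.Eventually.of_forall
      fun s => ?_)) ?_
    · simp
    · simp
      ring
  | monomial n c =>
    refine ⟨monomial n (derivative c), fun t a t' a' x ht ha => ?_⟩
    have h1 : ∀ (d : ℂ[X]) (m : ℕ) (u v : ℂ), (monomial m d).evalEval u v = d.eval u * v ^ m := by
      intro d m u v
      simp [evalEval, ← C_mul_X_pow_eq_monomial]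
    have h2 : HasDerivAt (fun s => c.eval (t s)) ((derivative c).eval (t x) * t') x :=
      (c.hasDerivAt (t x)).comp x ht
    have h3 := h2.mul (ha.pow n)
    simp only [h1, derivative_monomial]
    refine h3.congr_deriv ?_
    simp [eval_mul]
    ring

theorem exists_min {t a : ℝ → ℂ} (h : Dep t a)
    (ht : ∀ p : ℂ[X], p ≠ 0 → ∃ x, p.eval (t x) ≠ 0) :
    ∃ P : ℂ[X][X], (∀ x, P.evalEval (t x) (a x) = 0) ∧
      ∃ x, (derivative P).evalEval (t x) (a x) ≠ 0 := by
  classical
  have hex : ∃ n, ∃ P : ℂ[X][X], P.natDegree = n ∧ P ≠ 0 ∧ ∀ x, P.evalEval (t x) (a x) = 0 := by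
    obtain ⟨P, hP, h⟩ := h
    exact ⟨_, P, rfl, hP, h⟩
  obtain ⟨P, hn, hP, hz⟩ := Nat.find_spec hex
  refine ⟨P, hz, ?_⟩
  by_contra hcon
  push Not at hcon
  by_cases hd : P.natDegree = 0
  · rw [natDegree_eq_zero] at hd
    obtain ⟨p, rfl⟩ := hd
    have hp : p ≠ 0 := fun h => hP (by rw [h, C_0])
    obtain ⟨x, hx⟩ := ht p hp
    exact hx (by simpa [evalEval_C] using hz x)
  · have hd' : derivative P ≠ 0 := fun h => hd (natDegree_eq_zero_of_derivative_eq_zero h)
    have := Nat.find_min' hex ⟨derivative P, rfl, hd', hcon⟩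
    rw [← hn] at this
    exact absurd (natDegree_derivative_lt hd) (not_lt.2 this)

theorem transc {t t' : An} (hd : ∀ x, HasDerivAt t.1 (t'.1 x) x) (h0 : t' ≠ 0) (p : ℂ[X])
    (hp : p ≠ 0) : ∃ x, p.eval (t.1 x) ≠ 0 := by
  classical
  by_contra hcon
  push Not at hcon
  have hex : ∃ n, ∃ p : ℂ[X], p.natDegree = n ∧ p ≠ 0 ∧ ∀ x, p.eval (t.1 x) = 0 :=
    ⟨_, p, rfl, hp, hcon⟩
  obtain ⟨q, hn, hq, hz⟩ := Nat.find_spec hex
  have h1 : ∀ x, (derivative q).eval (t.1 x) * t'.1 x = 0 := by
    intro x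
    have h2 := (q.hasDerivAt (t.1 x)).comp x (hd x)
    have h3 : HasDerivAt (fun s => q.eval (t.1 s)) 0 x := by
      have : (fun s => q.eval (t.1 s)) = fun _ => 0 := funext hz
      rw [this]
      exact hasDerivAt_const _ _
    exact h2.unique h3
  have h2 : (aeval t (derivative q) : An) * t' = 0 := by
    apply Subtype.ext
    funext x
    have h4 : (aeval t (derivative q) : An).1 x = (derivative q).eval (t.1 x) := by
      have := ev_apply t t (C (derivative q)) x
      simpa [ev, evalEval_C] using this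
    have : ((aeval t (derivative q) : An) * t').1 x = (aeval t (derivative q) : An).1 x * t'.1 x :=
      rfl
    rw [this, h4, h1]
    rfl
  have h3 : (aeval t (derivative q) : An) = 0 := (mul_eq_zero.1 h2).resolve_right h0
  have h4 : ∀ x, (derivative q).eval (t.1 x) = 0 := by
    intro x
    have h4 : (aeval t (derivative q) : An).1 x = (derivative q).eval (t.1 x) := by
      have := ev_apply t t (C (derivative q)) x
      simpa [ev, evalEval_C] using this
    rw [← h4, h3]
    rfl
  by_cases hd : q.natDegree = 0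
  · rw [natDegree_eq_zero] at hd
    obtain ⟨c, rfl⟩ := hd
    have := hz 0
    rw [eval_C] at this
    exact hq (by rw [this, C_0])
  · have hd' : derivative q ≠ 0 := fun h => hd (natDegree_eq_zero_of_derivative_eq_zero h)
    have := Nat.find_min' hex ⟨derivative q, rfl, hd', h4⟩
    rw [← hn] at this
    exact absurd (natDegree_derivative_lt hd) (not_lt.2 this)

/-- derivative of an algebraic relation -/
theorem dep_deriv {t t' a a' : An} (ht : ∀ x, HasDerivAt t.1 (t'.1 x) x)
    (ha : ∀ x, HasDerivAt a.1 (a'.1 x) x) (h0 : t' ≠ 0) (h : Dep t.1 a.1) :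
    ∃ u v : An, Dep t.1 u.1 ∧ Dep t.1 v.1 ∧ v ≠ 0 ∧ u * t' + v * a' = 0 := by
  obtain ⟨P, hP, x0, hx0⟩ := exists_min h (transc ht h0)
  obtain ⟨PX, hPX⟩ := hasDeriv_ev P
  refine ⟨ev t a PX, ev t a (derivative P), dep_ev h _, dep_ev h _,
    An.ne_zero (x := x0) (by rwa [ev_apply]), ?_⟩
  apply Subtype.ext
  funext x
  have h1 := hPX t.1 a.1 _ _ x (ht x) (ha x)
  have h2 : HasDerivAt (fun s => P.evalEval (t.1 s) (a.1 s)) 0 x := by
    have : (fun s => P.evalEval (t.1 s) (a.1 s)) = fun _ => 0 := funext hP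
    rw [this]
    exact hasDerivAt_const _ _
  have h3 := h1.unique h2
  have h4 : (ev t a PX * t' + ev t a (derivative P) * a').1 x =
    (ev t a PX).1 x * t'.1 x + (ev t a (derivative P)).1 x * a'.1 x := rfl
  rw [h4, ev_apply, ev_apply, h3]
  rfl

/-! ## 3. The radius of curvature -/

/-- `exp (i x)` -/
noncomputable def zA : An := ⟨fun x => Complex.exp (Complex.I * x), fun x _ => by
  have h1 : AnalyticAt ℝ (fun x : ℝ => Complex.I * (x : ℂ)) x :=
    analyticAt_const.mul (Complex.ofRealCLM.analyticAt x)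
  have h2 : AnalyticAt ℝ Complex.exp ((fun x : ℝ => Complex.I * (x : ℂ)) x) :=
    (Complex.differentiable_exp.analyticAt _).restrictScalars
  exact h2.comp (f := fun x : ℝ => Complex.I * (x : ℂ)) h1⟩

theorem zA_deriv (x : ℝ) : HasDerivAt zA.1 ((algebraMap ℂ An Complex.I * zA).1 x) x := by
  have h1 : HasDerivAt (fun x : ℝ => Complex.I * (x : ℂ)) Complex.I x := by
    simpa using (Complex.ofRealCLM.hasDerivAt (x := x)).const_mul Complex.I
  have h2 : HasDerivAt (fun x : ℝ => Complex.exp (Complex.I * x))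
      (Complex.exp (Complex.I * x) * Complex.I) x := h1.cexp
  have h3 : (algebraMap ℂ An Complex.I * zA).1 x = Complex.exp (Complex.I * x) * Complex.I :=
    mul_comm _ _
  rw [h3]
  exact h2

theorem zA_ne (x : ℝ) : zA.1 x ≠ 0 := Complex.exp_ne_zero _

theorem geo (h : ℝ → ℝ) (hs : SmoothTable h) (ha : AnalyticOnNhd ℝ h univ)
    (F : ℝ[X][X]) (hF : F ≠ 0) (hF0 : ∀ ψ : ℝ,
      F.evalEval (h ψ * Real.cos ψ - deriv h ψ * Real.sin ψ)
        (h ψ * Real.sin ψ + deriv h ψ * Real.cos ψ) = 0) :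
    Dep zA.1 (fun x => ((h x + deriv (deriv h) x : ℝ) : ℂ)) := by
  obtain ⟨-, -, hpos⟩ := hs
  have hd1 : AnalyticOnNhd ℝ (deriv h) univ := ha.deriv
  have hd2 : AnalyticOnNhd ℝ (deriv (deriv h)) univ := hd1.deriv
  have hc : AnalyticOnNhd ℝ Real.cos univ := Real.analyticOnNhd_cos
  have hsn : AnalyticOnNhd ℝ Real.sin univ := Real.analyticOnNhd_sin
  set Xf : An := ofR (fun ψ => h ψ * Real.cos ψ - deriv h ψ * Real.sin ψ)
    ((ha.mul hc).sub (hd1.mul hsn)) with hXf
  set Yf : An := ofR (fun ψ => h ψ * Real.sin ψ + deriv h ψ * Real.cos ψ)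
    ((ha.mul hsn).add (hd1.mul hc)) with hYf
  set Rf : An := ofR (fun ψ => h ψ + deriv (deriv h) ψ) (ha.add hd2) with hRf
  set X' : An := ofR (fun ψ => -((h ψ + deriv (deriv h) ψ) * Real.sin ψ))
    (((ha.add hd2).mul hsn).neg) with hX'
  set Y' : An := ofR (fun ψ => (h ψ + deriv (deriv h) ψ) * Real.cos ψ)
    ((ha.add hd2).mul hc) with hY'
  have hh : ∀ x, HasDerivAt h (deriv h x) x := fun x => (ha x trivial).differentiableAt.hasDerivAt
  have hh1 : ∀ x, HasDerivAt (deriv h) (deriv (deriv h) x) x :=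
    fun x => (hd1 x trivial).differentiableAt.hasDerivAt
  have dX : ∀ x, HasDerivAt Xf.1 (X'.1 x) x := by
    intro x
    have h1 := ((hh x).mul (Real.hasDerivAt_cos x)).sub ((hh1 x).mul (Real.hasDerivAt_sin x))
    have h2 := h1.ofReal_comp
    refine h2.congr_deriv ?_
    change _ = ((-((h x + deriv (deriv h) x) * Real.sin x) : ℝ) : ℂ)
    congr 1
    ring
  have dY : ∀ x, HasDerivAt Yf.1 (Y'.1 x) x := by
    intro x
    have h1 := ((hh x).mul (Real.hasDerivAt_sin x)).add ((hh1 x).mul (Real.hasDerivAt_cos x))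
    have h2 := h1.ofReal_comp
    refine h2.congr_deriv ?_
    change _ = (((h x + deriv (deriv h) x) * Real.cos x : ℝ) : ℂ)
    congr 1
    ring
  have X0 : X' ≠ 0 := by
    refine An.ne_zero (x := Real.pi / 2) ?_
    change ((-((h (Real.pi / 2) + deriv (deriv h) (Real.pi / 2)) * Real.sin (Real.pi / 2)) : ℝ) : ℂ)
      ≠ 0
    rw [Real.sin_pi_div_two, mul_one]
    exact_mod_cast (neg_lt_zero.2 (hpos _)).ne
  -- `y` is algebraic over `x`
  have hXY : Dep Xf.1 Yf.1 := by
    refine ⟨F.map (mapRingHom Complex.ofRealHom), ?_, fun x => ?_⟩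
    · rwa [Ne, Polynomial.map_eq_zero_iff]
      exact map_injective _ Complex.ofRealHom.injective
    · have := map_mapRingHom_evalEval Complex.ofRealHom F
        (h x * Real.cos x - deriv h x * Real.sin x) (h x * Real.sin x + deriv h x * Real.cos x)
      rw [hF0 x, map_zero] at this
      exact this
  obtain ⟨u, v, hu, hv, hv0, huv⟩ := dep_deriv dX dY X0 hXY
  have huv' : ∀ x : ℝ, v.1 x * Complex.cos x = u.1 x * Complex.sin x := by
    intro x
    have h1 : u.1 x * X'.1 x + v.1 x * Y'.1 x = 0 := congrFun (congrArg Subtype.val huv) x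
    have h2 : X'.1 x = -(((h x + deriv (deriv h) x : ℝ) : ℂ) * Complex.sin x) := by
      change ((-((h x + deriv (deriv h) x) * Real.sin x) : ℝ) : ℂ) = _
      push_cast
      ring
    have h3 : Y'.1 x = (((h x + deriv (deriv h) x : ℝ) : ℂ) * Complex.cos x) := by
      change (((h x + deriv (deriv h) x) * Real.cos x : ℝ) : ℂ) = _
      push_cast
      ring
    have h4 : ((h x + deriv (deriv h) x : ℝ) : ℂ) ≠ 0 := by exact_mod_cast (hpos x).ne'
    rw [h2, h3] at h1
    apply mul_left_cancel₀ h4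
    linear_combination h1
  -- `z ^ 2` is algebraic over `x`
  have hz : ∀ x : ℝ, Complex.exp (Complex.I * x) = Complex.cos x + Complex.I * Complex.sin x := by
    intro x
    rw [mul_comm, Complex.exp_mul_I, mul_comm Complex.I]
  set A1 : An := v + algebraMap ℂ An Complex.I * u with hA1
  have hA1z : A1 * zA ^ 2 = algebraMap ℂ An Complex.I * u + algebraMap ℂ An (-1) * v := by
    apply Subtype.ext
    funext x
    change (v.1 x + Complex.I * u.1 x) * Complex.exp (Complex.I * x) ^ 2 =
      Complex.I * u.1 x + (-1) * v.1 x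
    rw [hz]
    have h1 := Complex.sin_sq_add_cos_sq (x : ℂ)
    have h2 := huv' x
    have h3 := Complex.I_sq
    linear_combination (2 * Complex.cos x + 2 * Complex.I * Complex.sin x) * h2 +
      (-v.1 x + Complex.I * u.1 x) * h1 + ((v.1 x + Complex.I * u.1 x) * Complex.sin x ^ 2 +
      2 * u.1 x * Complex.sin x * Complex.cos x) * h3
  have hA10 : A1 ≠ 0 := by
    intro h0
    rw [h0, zero_mul] at hA1z
    apply hv0
    have h1 : ∀ x, v.1 x = 0 := by
      intro x
      have h2 : v.1 x + Complex.I * u.1 x = 0 := congrFun (congrArg Subtype.val h0) x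
      have h3 : 0 = Complex.I * u.1 x + (-1) * v.1 x := congrFun (congrArg Subtype.val hA1z) x
      linear_combination (1 / 2 : ℂ) * h2 + (1 / 2 : ℂ) * h3
    exact Subtype.ext (funext h1)
  have hA1d : Dep Xf.1 A1.1 := dep_add hv (dep_mul (dep_const _ _) hu)
  have hzd : Dep Xf.1 zA.1 := by
    apply dep_of_sq
    apply dep_of_mul hA10 hA1d
    rw [hA1z]
    exact dep_add (dep_mul (dep_const _ _) hu) (dep_mul (dep_const _ _) hv)
  -- `x` is algebraic over `z`
  have hxd : Dep zA.1 Xf.1 := dep_swap hzd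
  have hz0 : algebraMap ℂ An Complex.I * zA ≠ 0 := by
    refine An.ne_zero (x := 0) ?_
    change Complex.I * Complex.exp (Complex.I * (0 : ℝ)) ≠ 0
    simp
  obtain ⟨p, q, hp, hq, hq0, hpq⟩ := dep_deriv zA_deriv dX hz0 hxd
  -- conclusion
  set B1 : An := q * (zA ^ 2 + algebraMap ℂ An (-1)) with hB1
  have hB0 : B1 ≠ 0 := by
    apply mul_ne_zero hq0
    refine An.ne_zero (x := Real.pi / 2) ?_
    change Complex.exp (Complex.I * (Real.pi / 2 : ℝ)) ^ 2 + (-1) ≠ 0
    rw [hz]
    rw [← Complex.ofReal_cos, ← Complex.ofReal_sin, Real.cos_pi_div_two, Real.sin_pi_div_two]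
    simp
  have hzz : Dep zA.1 (zA ^ 2).1 := by
    rw [pow_two]
    exact dep_mul (dep_self _) (dep_self _)
  have hBR : B1 * Rf = algebraMap ℂ An (-2) * (zA ^ 2 * p) := by
    apply Subtype.ext
    funext x
    change q.1 x * (Complex.exp (Complex.I * x) ^ 2 + (-1)) *
      ((h x + deriv (deriv h) x : ℝ) : ℂ) = (-2) * (Complex.exp (Complex.I * x) ^ 2 * p.1 x)
    have h1 : p.1 x * (Complex.I * Complex.exp (Complex.I * x)) + q.1 x * X'.1 x = 0 :=
      congrFun (congrArg Subtype.val hpq) x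
    have h2 : X'.1 x = -(((h x + deriv (deriv h) x : ℝ) : ℂ) * Complex.sin x) := by
      change ((-((h x + deriv (deriv h) x) * Real.sin x) : ℝ) : ℂ) = _
      push_cast
      ring
    rw [h2] at h1
    rw [hz] at h1 ⊢
    have h3 := Complex.sin_sq_add_cos_sq (x : ℂ)
    have h4 := Complex.I_sq
    linear_combination (-2 * Complex.I * (Complex.cos x + Complex.I * Complex.sin x)) * h1 +
      q.1 x * ((h x + deriv (deriv h) x : ℝ) : ℂ) * h3 +
      (2 * (Complex.cos x + Complex.I * Complex.sin x) ^ 2 * p.1 x -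
        q.1 x * ((h x + deriv (deriv h) x : ℝ) : ℂ) * Complex.sin x ^ 2) * h4
  exact dep_of_mul hB0 (dep_mul hq (dep_add hzz (dep_const _ _)))
    (hBR ▸ dep_mul (dep_const _ _) (dep_mul hzz hp))

end Vale.Agent.P097.H937
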