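import Vale.Agent.P097.H402.Alg.Defs
import Vale.Agent.P097.H937.Geo

/-! # P097 / ALG-GEO: `PGEO`.  Owner: helper937. -/

set_option linter.all false

open Polynomial Set

namespace Vale.Agent.P097.H937

/-- a table bounded by an algebraic curve has an algebraic radius of curvature -/
theorem pgeo : Alg.PGEO := by
  intro h hs ha hF
  obtain ⟨F, hF, hF0⟩ := hF
  obtain ⟨P, hP, hP0⟩ := geo h hs ha F hF hF0
  exact ⟨P, hP, fun x => hP0 x⟩

end Vale.Agent.P097.H937
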